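import Mathlib

/-!
# Kemperman's theorem (unique representation form)

For finite subsets `A`, `B` of an arbitrary group containing `1`, such that `a * b = 1` with
`a ∈ A`, `b ∈ B` forces `a = 1`, we have `|A| + |B| ≤ |A * B| + 1`.
-/

open Finset
open scoped Pointwise

namespace Vale.Agent.H48

variable {G : Type*} [Group G] [DecidableEq G]

/-- Right translate of a finset. -/
def rtr (A : Finset G) (x : G) : Finset G := A.image (fun a => a * x)

/-- Left translate of a finset. -/
def ltr (x : G) (B : Finset G) : Finset G := B.image (fun b => x * b)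

omit [DecidableEq G] in
lemma mul_right_inj' (x : G) : Function.Injective (fun a : G => a * x) :=
  fun a b h => by simpa using h

omit [DecidableEq G] in
lemma mul_left_inj' (x : G) : Function.Injective (fun b : G => x * b) :=
  fun a b h => by simpa using h

lemma card_rtr (A : Finset G) (x : G) : (rtr A x).card = A.card :=
  Finset.card_image_of_injective _ (mul_right_inj' x)

lemma card_ltr (x : G) (B : Finset G) : (ltr x B).card = B.card :=
  Finset.card_image_of_injective _ (mul_left_inj' x)

lemma mem_rtr {A : Finset G} {x y : G} : y ∈ rtr A x ↔ y * x⁻¹ ∈ A := by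
  unfold rtr
  constructor
  · intro h
    obtain ⟨a, ha, rfl⟩ := Finset.mem_image.1 h
    simpa using ha
  · intro h
    exact Finset.mem_image.2 ⟨y * x⁻¹, h, by simp⟩

lemma mem_ltr {B : Finset G} {x y : G} : y ∈ ltr x B ↔ x⁻¹ * y ∈ B := by
  unfold ltr
  constructor
  · intro h
    obtain ⟨b, hb, rfl⟩ := Finset.mem_image.1 h
    simpa using hb
  · intro h
    exact Finset.mem_image.2 ⟨x⁻¹ * y, h, by simp⟩

/-- `|A ∩ A x⁻¹| = |A x ∩ A|`. -/
lemma card_inter_rtr_inv (A : Finset G) (x : G) :
    (A ∩ rtr A x⁻¹).card = (A ∩ rtr A x).card := by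
  have h : rtr (A ∩ rtr A x⁻¹) x = A ∩ rtr A x := by
    ext y
    simp only [mem_rtr, Finset.mem_inter, inv_inv]
    constructor
    · rintro ⟨h1, h2⟩
      refine ⟨?_, h1⟩
      simpa [mul_assoc] using h2
    · rintro ⟨h1, h2⟩
      refine ⟨h2, ?_⟩
      simpa [mul_assoc] using h1
  rw [← h, card_rtr]

/-- `|B ∩ x⁻¹ B| = |B ∩ x B|`. -/
lemma card_inter_ltr_inv (B : Finset G) (x : G) :
    (B ∩ ltr x⁻¹ B).card = (B ∩ ltr x B).card := by
  have h : ltr x (B ∩ ltr x⁻¹ B) = B ∩ ltr x B := by
    ext y
    simp only [mem_ltr, Finset.mem_inter, inv_inv]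
    constructor
    · rintro ⟨h1, h2⟩
      refine ⟨?_, h1⟩
      simpa [mul_assoc] using h2
    · rintro ⟨h1, h2⟩
      refine ⟨h2, ?_⟩
      simpa [mul_assoc] using h1
  rw [← h, card_ltr]

/-- The four transformed sets have total size `2 (|A| + |B|)`. -/
lemma card_transforms (A B : Finset G) (x : G) :
    (A ∪ rtr A x).card + (B ∩ ltr x⁻¹ B).card + ((A ∩ rtr A x⁻¹).card + (B ∪ ltr x B).card)
      = 2 * (A.card + B.card) := by
  have h1 := Finset.card_union_add_card_inter A (rtr A x)
  have h2 := Finset.card_union_add_card_inter B (ltr x B)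
  rw [card_rtr] at h1
  rw [card_ltr] at h2
  rw [card_inter_rtr_inv, card_inter_ltr_inv]
  omega

lemma transform_right_subset (A B : Finset G) (x : G) :
    (A ∪ rtr A x) * (B ∩ ltr x⁻¹ B) ⊆ A * B := by
  intro z hz
  obtain ⟨a, ha, b, hb, rfl⟩ := Finset.mem_mul.1 hz
  rw [Finset.mem_inter, mem_ltr, inv_inv] at hb
  rcases Finset.mem_union.1 ha with ha | ha
  · exact Finset.mul_mem_mul ha hb.1
  · rw [mem_rtr] at ha
    have : a * b = (a * x⁻¹) * (x * b) := by group
    rw [this]
    exact Finset.mul_mem_mul ha hb.2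

lemma transform_left_subset (A B : Finset G) (x : G) :
    (A ∩ rtr A x⁻¹) * (B ∪ ltr x B) ⊆ A * B := by
  intro z hz
  obtain ⟨a, ha, b, hb, rfl⟩ := Finset.mem_mul.1 hz
  rw [Finset.mem_inter, mem_rtr, inv_inv] at ha
  rcases Finset.mem_union.1 hb with hb | hb
  · exact Finset.mul_mem_mul ha.1 hb
  · rw [mem_ltr] at hb
    have : a * b = (a * x) * (x⁻¹ * b) := by group
    rw [this]
    exact Finset.mul_mem_mul ha.2 hb

/-- Auxiliary form of Kemperman's theorem, set up for a double induction on the deficiency
`2 |A B| - (|A| + |B|)` and on `|B|`. -/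
theorem kemperman_aux : ∀ (d b : ℕ) (A B : Finset G), (1 : G) ∈ A → (1 : G) ∈ B →
    (∀ a ∈ A, ∀ c ∈ B, a * c = 1 → a = 1) →
    2 * (A * B).card - (A.card + B.card) = d → B.card = b →
    A.card + B.card ≤ (A * B).card + 1 := by
  intro d
  induction d using Nat.strong_induction_on with
  | _ d ihd =>
  intro b
  induction b using Nat.strong_induction_on with
  | _ b ihb =>
  intro A B hA hB huniq hd hb
  -- `A` and `B` are contained in `A * B`
  have hAsub : A ⊆ A * B := fun a ha => by
    have := Finset.mul_mem_mul ha hB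
    simpa using this
  have hBsub : B ⊆ A * B := fun c hc => by
    have := Finset.mul_mem_mul hA hc
    simpa using this
  by_cases hAB : ∀ x ∈ A ∩ B, x = 1
  · -- `A ∩ B = {1}`: then `A ∪ B ⊆ A * B` already has `|A| + |B| - 1` elements
    have hinter : (A ∩ B).card ≤ 1 := by
      apply Finset.card_le_one.2
      intro p hp q hq
      rw [hAB p hp, hAB q hq]
    have hunion : (A ∪ B).card ≤ (A * B).card :=
      Finset.card_le_card (Finset.union_subset hAsub hBsub)
    have := Finset.card_union_add_card_inter A B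
    omega
  · push Not at hAB
    obtain ⟨x, hx, hx1⟩ := hAB
    rw [Finset.mem_inter] at hx
    obtain ⟨hxA, hxB⟩ := hx
    -- `x⁻¹` lies neither in `A` nor in `B`
    have hxA' : x⁻¹ ∉ A := fun h => by
      have := huniq x⁻¹ h x hxB (by simp)
      exact hx1 (by simpa using this)
    have hxB' : x⁻¹ ∉ B := fun h => by
      exact hx1 (huniq x hxA x⁻¹ h (by simp))
    -- the two transformed pairs
    set A₁ := A ∪ rtr A x with hA₁
    set B₁ := B ∩ ltr x⁻¹ B with hB₁
    set A₂ := A ∩ rtr A x⁻¹ with hA₂
    set B₂ := B ∪ ltr x B with hB₂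
    have hsub₁ : A₁ * B₁ ⊆ A * B := transform_right_subset A B x
    have hsub₂ : A₂ * B₂ ⊆ A * B := transform_left_subset A B x
    have hcard : A₁.card + B₁.card + (A₂.card + B₂.card) = 2 * (A.card + B.card) :=
      card_transforms A B x
    have hc₁ : (A₁ * B₁).card ≤ (A * B).card := Finset.card_le_card hsub₁
    have hc₂ : (A₂ * B₂).card ≤ (A * B).card := Finset.card_le_card hsub₂
    have h1A₁ : (1 : G) ∈ A₁ := Finset.mem_union_left _ hA
    have h1B₁ : (1 : G) ∈ B₁ := by
      rw [hB₁, Finset.mem_inter, mem_ltr]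
      exact ⟨hB, by simpa using hxB⟩
    have h1A₂ : (1 : G) ∈ A₂ := by
      rw [hA₂, Finset.mem_inter, mem_rtr]
      exact ⟨hA, by simpa using hxA⟩
    have h1B₂ : (1 : G) ∈ B₂ := Finset.mem_union_left _ hB
    have huniq₁ : ∀ a ∈ A₁, ∀ c ∈ B₁, a * c = 1 → a = 1 := by
      intro a ha c hc hac
      rw [hB₁, Finset.mem_inter, mem_ltr, inv_inv] at hc
      rcases Finset.mem_union.1 ha with ha | ha
      · exact huniq a ha c hc.1 hac
      · rw [mem_rtr] at ha
        have h3 : (a * x⁻¹) * (x * c) = 1 := by
          have : (a * x⁻¹) * (x * c) = a * c := by group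
          rw [this, hac]
        have h4 := huniq _ ha _ hc.2 h3
        -- so `a = x` and `c = x⁻¹ ∈ B`, impossible
        have hax : a = x := by
          have : a = (a * x⁻¹) * x := by group
          rw [this, h4, one_mul]
        have hcx : c = x⁻¹ := by
          rw [hax] at hac
          exact eq_inv_of_mul_eq_one_right hac
        exact absurd (hcx ▸ hc.1) hxB'
    have huniq₂ : ∀ a ∈ A₂, ∀ c ∈ B₂, a * c = 1 → a = 1 := by
      intro a ha c hc hac
      rw [hA₂, Finset.mem_inter, mem_rtr, inv_inv] at ha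
      rcases Finset.mem_union.1 hc with hc | hc
      · exact huniq a ha.1 c hc hac
      · rw [mem_ltr] at hc
        have h3 : (a * x) * (x⁻¹ * c) = 1 := by
          have : (a * x) * (x⁻¹ * c) = a * c := by group
          rw [this, hac]
        have h4 := huniq _ ha.2 _ hc h3
        -- so `a = x⁻¹ ∈ A`, impossible
        have hax : a = x⁻¹ := eq_inv_of_mul_eq_one_left h4
        exact absurd (hax ▸ ha.1) hxA'
    -- both transformed pairs have their factors inside their product
    have hA₁sub : A₁.card ≤ (A₁ * B₁).card := Finset.card_le_card (fun a ha => by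
      have := Finset.mul_mem_mul ha h1B₁
      simpa using this)
    have hB₁sub : B₁.card ≤ (A₁ * B₁).card := Finset.card_le_card (fun c hc => by
      have := Finset.mul_mem_mul h1A₁ hc
      simpa using this)
    have hA₂sub : A₂.card ≤ (A₂ * B₂).card := Finset.card_le_card (fun a ha => by
      have := Finset.mul_mem_mul ha h1B₂
      simpa using this)
    have hB₂sub : B₂.card ≤ (A₂ * B₂).card := Finset.card_le_card (fun c hc => by
      have := Finset.mul_mem_mul h1A₂ hc
      simpa using this)
    have hAc : A.card ≤ (A * B).card := Finset.card_le_card hAsub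
    have hBc : B.card ≤ (A * B).card := Finset.card_le_card hBsub
    -- `B₁` is a proper subset of `B`
    have hB₁lt : B₁.card < B.card := by
      apply Finset.card_lt_card
      refine ⟨Finset.inter_subset_left, fun h => ?_⟩
      have hsub : B ⊆ ltr x⁻¹ B := fun c hc => (Finset.mem_inter.1 (h hc)).2
      have heq : B = ltr x⁻¹ B :=
        Finset.eq_of_subset_of_card_le hsub (by rw [card_ltr])
      have : x⁻¹ ∈ ltr x⁻¹ B := by
        rw [mem_ltr]
        simpa using hB
      rw [← heq] at this
      exact hxB' this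
    by_cases hcase : A.card + B.card ≤ A₁.card + B₁.card
    · -- first transform does not lose
      by_cases hdlt : 2 * (A₁ * B₁).card - (A₁.card + B₁.card) < d
      · have := ihd _ hdlt B₁.card A₁ B₁ h1A₁ h1B₁ huniq₁ rfl rfl
        omega
      · have hdeq : 2 * (A₁ * B₁).card - (A₁.card + B₁.card) = d := by omega
        have := ihb B₁.card (by omega) A₁ B₁ h1A₁ h1B₁ huniq₁ hdeq rfl
        omega
    · -- second transform strictly gains
      have hgain : A.card + B.card < A₂.card + B₂.card := by omega
      have hdlt : 2 * (A₂ * B₂).card - (A₂.card + B₂.card) < d := by omega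
      have := ihd _ hdlt B₂.card A₂ B₂ h1A₂ h1B₂ huniq₂ rfl rfl
      omega

/-- **Kemperman's theorem** (unique representation form), for an arbitrary group: if `A`, `B`
are finite sets containing `1` and `1 = a * b` (`a ∈ A`, `b ∈ B`) only for `a = b = 1`, then
`|A| + |B| ≤ |A * B| + 1`. -/
theorem kemperman (A B : Finset G) (hA : (1 : G) ∈ A) (hB : (1 : G) ∈ B)
    (huniq : ∀ a ∈ A, ∀ c ∈ B, a * c = 1 → a = 1) :
    A.card + B.card ≤ (A * B).card + 1 :=
  kemperman_aux _ _ A B hA hB huniq rfl rfl

end Vale.Agent.H48
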