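import Mathlib

/-!
# Nearest-neighbour random walk in a fixed environment: no escape against a nonnegative drift

A nearest-neighbour walk on `ℤ^d` is encoded by its sequence of steps.  For a fixed environment
`ω` whose local drift has nonnegative inner product with a direction `ℓ` at every site, the
process `X_n · ℓ` is a submartingale with bounded increments under the quenched law, so it
cannot tend to `-∞` on a set of positive probability.
-/

namespace Vale.Agent.H48.RWRE

open MeasureTheory Filter Finset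
open scoped Topology NNReal ENNReal

/-- A nearest-neighbour step of `ℤ^d`: the pair with first entry `i` and second entry `true`
stands for `+e_i`, the pair with second entry `false` for `-e_i`. -/
abbrev Step (d : ℕ) : Type := Fin d × Bool

/-- The step as a vector of `ℤ^d`. -/
def stepVec {d : ℕ} (u : Step d) : Fin d → ℤ :=
  fun j => if j = u.1 then (if u.2 then 1 else -1) else 0

/-- Position after `n` steps of the walk started at `x` whose successive steps are
`s 0, s 1, ...`. -/
def pos {d : ℕ} (x : Fin d → ℤ) (s : ℕ → Step d) (n : ℕ) : Fin d → ℤ :=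
  x + ∑ k ∈ Finset.range n, stepVec (s k)

/-- An environment: every site `y` carries a probability vector `ω y` on the `2d` steps. -/
def IsEnv {d : ℕ} (ω : (Fin d → ℤ) → Step d → ℝ) : Prop :=
  (∀ y u, 0 ≤ ω y u) ∧ ∀ y, ∑ u, ω y u = 1

/-- `P` is the quenched law, on the space of step sequences, of the walk in the environment `ω`
started at `x`: the probability that the first `n` steps are `u 0, ..., u (n-1)` is the product
of the transition probabilities `ω (X_i) (u i)` along the resulting path. -/
def IsQuenchedLaw {d : ℕ} (ω : (Fin d → ℤ) → Step d → ℝ) (x : Fin d → ℤ)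
    (P : Measure (ℕ → Step d)) : Prop :=
  ∀ (n : ℕ) (u : ℕ → Step d),
    P {s | ∀ i < n, s i = u i} = ENNReal.ofReal (∏ i ∈ Finset.range n, ω (pos x u i) (u i))

/-- The inner product with `ℓ` of the local drift `∑_e ω(y,e) e` of the environment at `y`. -/
def drift {d : ℕ} (ω : (Fin d → ℤ) → Step d → ℝ) (ℓ : Fin d → ℝ) (y : Fin d → ℤ) : ℝ :=
  ∑ u, ω y u * ∑ j, (stepVec u j : ℝ) * ℓ j

/-- The event `A_ℓ` of escape in direction `ℓ`: `X_n · ℓ → +∞`, for the walk started at `x`. -/
def escape {d : ℕ} (x : Fin d → ℤ) (ℓ : Fin d → ℝ) : Set (ℕ → Step d) :=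
  {s | Tendsto (fun n => ∑ j, (pos x s n j : ℝ) * ℓ j) atTop atTop}

/-- The inner product of a step with `ℓ`. -/
def inc {d : ℕ} (ℓ : Fin d → ℝ) (u : Step d) : ℝ := ∑ j, (stepVec u j : ℝ) * ℓ j

theorem pos_congr {d : ℕ} (x : Fin d → ℤ) (s s' : ℕ → Step d) (n : ℕ)
    (h : ∀ k < n, s k = s' k) : pos x s n = pos x s' n := by
  unfold pos
  congr 1
  exact Finset.sum_congr rfl (fun k hk => by rw [h k (Finset.mem_range.1 hk)])

theorem inner_pos {d : ℕ} (x : Fin d → ℤ) (ℓ : Fin d → ℝ) (s : ℕ → Step d) (n : ℕ) :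
    ∑ j, (pos x s n j : ℝ) * ℓ j
      = ∑ j, (x j : ℝ) * ℓ j + ∑ k ∈ Finset.range n, inc ℓ (s k) := by
  unfold pos inc
  simp only [Pi.add_apply, Finset.sum_apply, Int.cast_add, Int.cast_sum, add_mul,
    Finset.sum_add_distrib, Finset.sum_mul]
  congr 1
  exact Finset.sum_comm

/-- The cylinder of step sequences that start with `u 0, ..., u (n-1)`. -/
def cyl {d : ℕ} (n : ℕ) (u : ℕ → Step d) : Set (ℕ → Step d) := {s | ∀ i < n, s i = u i}

theorem measurableSet_cyl {d : ℕ} (n : ℕ) (u : ℕ → Step d) : MeasurableSet (cyl n u) := by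
  have h : cyl n u = ⋂ i ∈ Finset.range n, (fun s : ℕ → Step d => s i) ⁻¹' {u i} := by
    ext s; simp [cyl]
  rw [h]
  exact Finset.measurableSet_biInter _
    (fun i _ => (measurable_pi_apply i) (measurableSet_singleton (u i)))

theorem inc_le {d : ℕ} (ℓ : Fin d → ℝ) (v : Step d) : |inc ℓ v| ≤ ∑ u : Step d, |inc ℓ u| :=
  Finset.single_le_sum (f := fun u => |inc ℓ u|) (fun _ _ => abs_nonneg _) (Finset.mem_univ v)

theorem integrable_inc {d : ℕ} (P : Measure (ℕ → Step d)) [IsFiniteMeasure P] (ℓ : Fin d → ℝ)
    (n : ℕ) : Integrable (fun s : ℕ → Step d => inc ℓ (s n)) P := by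
  refine Integrable.of_bound (C := ∑ u : Step d, |inc ℓ u|) ?_ (ae_of_all _ (fun s => ?_))
  · exact ((Measurable.of_discrete (f := inc ℓ)).comp
      (measurable_pi_apply n)).aestronglyMeasurable
  · rw [Real.norm_eq_abs]; exact inc_le ℓ (s n)

theorem setIntegral_cyl {d : ℕ} (ω : (Fin d → ℤ) → Step d → ℝ) (hω : IsEnv ω) (x : Fin d → ℤ)
    (P : Measure (ℕ → Step d)) [IsFiniteMeasure P] (hP : IsQuenchedLaw ω x P) (ℓ : Fin d → ℝ)
    (n : ℕ) (u : ℕ → Step d) :
    ∫ s in cyl n u, inc ℓ (s n) ∂P
      = (∏ i ∈ Finset.range n, ω (pos x u i) (u i)) * drift ω ℓ (pos x u n) := by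
  classical
  have hunion : cyl n u = ⋃ v : Step d, cyl (n + 1) (Function.update u n v) := by
    ext s
    simp only [cyl, Set.mem_ofPred_eq, Set.mem_iUnion]
    constructor
    · intro h
      refine ⟨s n, fun i hi => ?_⟩
      rcases Nat.lt_succ_iff_lt_or_eq.1 hi with h' | h'
      · rw [Function.update_of_ne (Nat.ne_of_lt h'), h i h']
      · rw [h', Function.update_self]
    · rintro ⟨v, h⟩ i hi
      rw [h i (Nat.lt_succ_of_lt hi), Function.update_of_ne (Nat.ne_of_lt hi)]
  have hdisj : Pairwise (Function.onFun Disjoint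
      (fun v : Step d => cyl (n + 1) (Function.update u n v))) := by
    intro v v' hvv'
    refine Set.disjoint_left.2 (fun s hs hs' => hvv' ?_)
    have h1 := hs n (Nat.lt_succ_self n)
    have h2 := hs' n (Nat.lt_succ_self n)
    rw [Function.update_self] at h1 h2
    exact h1.symm.trans h2
  have hint : ∀ v : Step d, IntegrableOn (fun s : ℕ → Step d => inc ℓ (s n))
      (cyl (n + 1) (Function.update u n v)) P :=
    fun v => (integrable_inc P ℓ n).integrableOn
  rw [hunion, integral_iUnion_fintype (fun v => measurableSet_cyl _ _) hdisj hint]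
  have hpiece : ∀ v : Step d,
      ∫ s in cyl (n + 1) (Function.update u n v), inc ℓ (s n) ∂P
        = (∏ i ∈ Finset.range n, ω (pos x u i) (u i)) * (ω (pos x u n) v * inc ℓ v) := by
    intro v
    have h1 : ∫ s in cyl (n + 1) (Function.update u n v), inc ℓ (s n) ∂P
        = ∫ _s in cyl (n + 1) (Function.update u n v), inc ℓ v ∂P := by
      refine setIntegral_congr_fun (measurableSet_cyl _ _) (fun s hs => ?_)
      have h := hs n (Nat.lt_succ_self n)
      rw [Function.update_self] at h
      show inc ℓ (s n) = inc ℓ v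
      rw [h]
    rw [h1, setIntegral_const]
    have h2 : P.real (cyl (n + 1) (Function.update u n v))
        = (∏ i ∈ Finset.range n, ω (pos x u i) (u i)) * ω (pos x u n) v := by
      have h := hP (n + 1) (Function.update u n v)
      have hc : cyl (n + 1) (Function.update u n v)
          = {s | ∀ i < n + 1, s i = Function.update u n v i} := rfl
      rw [Measure.real, hc, h, ENNReal.toReal_ofReal (Finset.prod_nonneg (fun _ _ => hω.1 _ _)),
        Finset.prod_range_succ, Function.update_self,
        pos_congr x (Function.update u n v) u n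
          (fun k hk => Function.update_of_ne (Nat.ne_of_lt hk) _ _)]
      congr 1
      refine Finset.prod_congr rfl (fun i hi => ?_)
      have hi' := Finset.mem_range.1 hi
      rw [Function.update_of_ne (Nat.ne_of_lt hi'),
        pos_congr x (Function.update u n v) u i
          (fun k hk => Function.update_of_ne (Nat.ne_of_lt (lt_trans hk hi')) _ _)]
    rw [h2, smul_eq_mul]
    ring
  simp_rw [hpiece]
  rw [← Finset.mul_sum]
  rfl

/-- Restriction of a step sequence to its first `n` steps. -/
def restr {d : ℕ} (n : ℕ) (s : ℕ → Step d) : Fin n → Step d := fun i => s i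

theorem measurable_restr {d : ℕ} (n : ℕ) : Measurable (restr (d := d) n) :=
  measurable_pi_lambda _ (fun _ => measurable_pi_apply _)

/-- The filtration generated by the steps: `stepFiltration d n` is generated by the first `n`
steps. -/
def stepFiltration (d : ℕ) :
    Filtration ℕ (inferInstance : MeasurableSpace (ℕ → Step d)) where
  seq n := MeasurableSpace.comap (restr n) inferInstance
  mono' := by
    intro n m hnm
    have hcomp : restr (d := d) n
        = (fun (t : Fin m → Step d) (i : Fin n) => t (Fin.castLE hnm i)) ∘ restr m := rfl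
    show MeasurableSpace.comap (restr n) _ ≤ MeasurableSpace.comap (restr m) _
    rw [hcomp, ← MeasurableSpace.comap_comp]
    exact MeasurableSpace.comap_mono
      (Measurable.comap_le (measurable_pi_lambda _ (fun i => measurable_pi_apply _)))
  le' := fun n => (measurable_restr n).comap_le

theorem stronglyAdapted_steps {d : ℕ} (ℓ : Fin d → ℝ) :
    StronglyAdapted (stepFiltration d)
      (fun (n : ℕ) (s : ℕ → Step d) => ∑ k ∈ Finset.range n, inc ℓ (s k)) := by
  intro n
  have h : (fun s : ℕ → Step d => ∑ k ∈ Finset.range n, inc ℓ (s k))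
      = (fun t : Fin n → Step d => ∑ k : Fin n, inc ℓ (t k)) ∘ restr n := by
    funext s
    simp only [Function.comp, restr]
    exact Finset.sum_range (fun k => inc ℓ (s k))
  show StronglyMeasurable[stepFiltration d n]
    (fun s : ℕ → Step d => ∑ k ∈ Finset.range n, inc ℓ (s k))
  rw [h]
  have hm : Measurable[stepFiltration d n] (restr (d := d) n) := comap_measurable _
  exact (Measurable.of_discrete.comp hm).stronglyMeasurable

theorem setIntegral_inc_nonneg {d : ℕ} (ω : (Fin d → ℤ) → Step d → ℝ) (hω : IsEnv ω)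
    (x : Fin d → ℤ) (P : Measure (ℕ → Step d)) [IsFiniteMeasure P] (hP : IsQuenchedLaw ω x P)
    (ℓ : Fin d → ℝ) (hdrift : ∀ y, 0 ≤ drift ω ℓ y) (n : ℕ) (S : Set (ℕ → Step d))
    (hS : MeasurableSet[stepFiltration d n] S) :
    0 ≤ ∫ s in S, inc ℓ (s n) ∂P := by
  obtain ⟨T, hT, rfl⟩ := hS
  have hS' : restr n ⁻¹' T = ⋃ t : Fin n → Step d, restr n ⁻¹' ({t} ∩ T) := by
    ext s; simp
  have hdisj : Pairwise (Function.onFun Disjoint
      (fun t : Fin n → Step d => restr (d := d) n ⁻¹' ({t} ∩ T))) := by
    intro t t' htt'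
    refine Set.disjoint_left.2 (fun s hs hs' => htt' ?_)
    exact hs.1.symm.trans hs'.1
  rw [hS', integral_iUnion_fintype
    (fun t => (measurable_restr n) ((measurableSet_singleton t).inter hT)) hdisj
    (fun t => (integrable_inc P ℓ n).integrableOn)]
  refine Finset.sum_nonneg (fun t _ => ?_)
  by_cases hne : (restr (d := d) n ⁻¹' ({t} ∩ T)).Nonempty
  · obtain ⟨s₀, hs₀⟩ := hne
    have hs₀t : restr n s₀ = t := hs₀.1
    have hc : restr (d := d) n ⁻¹' ({t} ∩ T) = cyl n s₀ := by
      ext s
      constructor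
      · intro h i hi
        have h1 : restr n s = t := h.1
        exact (congrFun h1 ⟨i, hi⟩).trans (congrFun hs₀t ⟨i, hi⟩).symm
      · intro h
        have h1 : restr n s = restr n s₀ := funext (fun i => h i i.2)
        show restr n s ∈ {t} ∩ T
        rw [h1]
        exact hs₀
    rw [hc, setIntegral_cyl ω hω x P hP ℓ n s₀]
    exact mul_nonneg (Finset.prod_nonneg (fun i _ => hω.1 _ _)) (hdrift _)
  · rw [Set.not_nonempty_iff_eq_empty.1 hne]
    simp

theorem submartingale_steps {d : ℕ} (ω : (Fin d → ℤ) → Step d → ℝ) (hω : IsEnv ω)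
    (x : Fin d → ℤ) (P : Measure (ℕ → Step d)) [IsFiniteMeasure P] (hP : IsQuenchedLaw ω x P)
    (ℓ : Fin d → ℝ) (hdrift : ∀ y, 0 ≤ drift ω ℓ y) :
    Submartingale (fun (n : ℕ) (s : ℕ → Step d) => ∑ k ∈ Finset.range n, inc ℓ (s k))
      (stepFiltration d) P := by
  have hint : ∀ n : ℕ, Integrable
      (fun s : ℕ → Step d => ∑ k ∈ Finset.range n, inc ℓ (s k)) P :=
    fun n => integrable_finsetSum _ (fun k _ => integrable_inc P ℓ k)
  refine submartingale_of_setIntegral_le_succ (stronglyAdapted_steps ℓ) hint ?_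
  intro n S hS
  have h0 := setIntegral_inc_nonneg ω hω x P hP ℓ hdrift n S hS
  have h1 : ∫ s in S, ∑ k ∈ Finset.range (n + 1), inc ℓ (s k) ∂P
      = ∫ s in S, ∑ k ∈ Finset.range n, inc ℓ (s k) ∂P + ∫ s in S, inc ℓ (s n) ∂P := by
    simp_rw [Finset.sum_range_succ]
    exact integral_add (hint n).integrableOn (integrable_inc P ℓ n).integrableOn
  rw [h1]
  linarith

/-- **No escape against a nonnegative drift (quenched).**  If the local drift of the environment
`ω` has nonnegative inner product with `ℓ` at every site, then under the quenched law started at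
`x` the walk almost surely does not escape in direction `-ℓ`. -/
theorem quenched_null {d : ℕ} (ω : (Fin d → ℤ) → Step d → ℝ) (hω : IsEnv ω) (x : Fin d → ℤ)
    (P : Measure (ℕ → Step d)) (hP : IsQuenchedLaw ω x P) (ℓ : Fin d → ℝ)
    (hdrift : ∀ y, 0 ≤ drift ω ℓ y) : P (escape x (-ℓ)) = 0 := by
  by_cases hne : Nonempty (ℕ → Step d)
  · obtain ⟨u⟩ := hne
    have hprob : P Set.univ = 1 := by
      have h := hP 0 u
      simpa using h
    have : IsFiniteMeasure P := ⟨by rw [hprob]; exact ENNReal.one_lt_top⟩
    have hsub := submartingale_steps ω hω x P hP ℓ hdrift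
    have hb := hsub.bddAbove_iff_exists_tendsto
      (R := ⟨∑ u : Step d, |inc ℓ u|, Finset.sum_nonneg (fun _ _ => abs_nonneg _)⟩)
      (ae_of_all _ (fun s i => by
        show |∑ k ∈ Finset.range (i + 1), inc ℓ (s k) - ∑ k ∈ Finset.range i, inc ℓ (s k)| ≤ _
        rw [Finset.sum_range_succ, add_sub_cancel_left]
        exact inc_le ℓ (s i)))
    rw [measure_eq_zero_iff_ae_notMem]
    filter_upwards [hb] with s hs hmem
    have h1 : Tendsto (fun n => ∑ k ∈ Finset.range n, inc ℓ (s k)) atTop atBot := by
      have h2 : Tendsto (fun n => ∑ j, (pos x s n j : ℝ) * (-ℓ) j) atTop atTop := hmem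
      have h3 : Tendsto
          (fun n => -(∑ j, (x j : ℝ) * ℓ j + ∑ k ∈ Finset.range n, inc ℓ (s k)))
          atTop atTop := by
        refine h2.congr (fun n => ?_)
        rw [← inner_pos x ℓ s n, ← Finset.sum_neg_distrib]
        exact Finset.sum_congr rfl (fun j _ => by rw [Pi.neg_apply, mul_neg])
      have h4 := tendsto_neg_atTop_iff.1 h3
      have h5 := tendsto_atBot_add_const_left atTop (-(∑ j, (x j : ℝ) * ℓ j)) h4
      refine h5.congr (fun n => by ring)
    obtain ⟨c, hc⟩ := hs.1 (Filter.bddAbove_range_of_tendsto_atTop_atBot h1)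
    exact not_tendsto_nhds_of_tendsto_atBot h1 c hc
  · have he : escape x (-ℓ) = ∅ := by
      ext s
      exact (hne ⟨s⟩).elim
    rw [he, measure_empty]

end Vale.Agent.H48.RWRE
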